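import Vale.Agent.P032.Net.Beta

/-!
# P032: the rhombus network with clean (1,1) centres allowed

`WebM P Q o`: as `WebB`, but centres with exactly one clean end of each type are allowed (field
`out`), and for the centres with counts (1,2) only the opposition property `opp` is used.
-/

namespace Vale.Agent.P032.Net

/-- the network of clean ends, any special ends allowed -/
structure WebM (P Q : ℂ → ℂ → Prop) (o : ℂ → ℂ → ℝ) : Prop where
  rh : ∀ {z v q : ℂ}, P z v → Q z q → v + q ≠ 2 * z ∧ P (v + q - z) v ∧ Q (v + q - z) q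
  threeP : ∀ {v a b c d : ℂ}, P a v → P b v → P c v → P d v → (∃ q, Q a q) → (∃ q, Q b q) →
    (∃ q, Q c q) → (∃ q, Q d q) → a ≠ b → a ≠ c → b ≠ c → d = a ∨ d = b ∨ d = c
  threeQ : ∀ {v a b c d : ℂ}, Q a v → Q b v → Q c v → Q d v → (∃ q, P a q) → (∃ q, P b q) →
    (∃ q, P c q) → (∃ q, P d q) → a ≠ b → a ≠ c → b ≠ c → d = a ∨ d = b ∨ d = c
  sep : ∀ {z v v' q q' : ℂ}, P z v → P z v' → Q z q → Q z q' →
    0 < det (v - z) (q - z) * det (v - z) (q' - z) *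
      (det (v' - z) (q - z) * det (v' - z) (q' - z))
  sgn : ∀ {z v : ℂ}, P z v ∨ Q z v → o z v = 1 ∨ o z v = -1
  oppP : ∀ {z v q q' : ℂ}, P z v → Q z q → Q z q' → q ≠ q' → (∀ v', P z v' → v' = v) →
    (∀ s, Q z s → s = q ∨ s = q') → det (v - z) (q - z) * det (v - z) (q' - z) < 0
  oppQ : ∀ {z v q q' : ℂ}, Q z v → P z q → P z q' → q ≠ q' → (∀ v', Q z v' → v' = v) →
    (∀ s, P z s → s = q ∨ s = q') → det (v - z) (q - z) * det (v - z) (q' - z) < 0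
  out : ∀ {z v q : ℂ}, P z v → Q z q → (∀ v', P z v' → v' = v) → (∀ q', Q z q' → q' = q) →
    0 < o z v * det (v - z) (q - z) ∧ 0 < o z q * det (q - z) (v - z)
  lp3P : ∀ {z v q c p : ℂ}, P z v → Q z q → P c v → Q c p → c ≠ z → c ≠ v + q - z →
    ∃ a b : ℝ, 0 ≤ a ∧ 0 ≤ b ∧ (o c v : ℂ) * (c - v) + (a : ℂ) * ((o z v : ℂ) * (z - v))
        + (b : ℂ) * ((o (v + q - z) v : ℂ) * (q - z)) = 0
  lp3Q : ∀ {z v q c p : ℂ}, Q z v → P z q → Q c v → P c p → c ≠ z → c ≠ v + q - z →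
    ∃ a b : ℝ, 0 ≤ a ∧ 0 ≤ b ∧ (o c v : ℂ) * (c - v) + (a : ℂ) * ((o z v : ℂ) * (z - v))
        + (b : ℂ) * ((o (v + q - z) v : ℂ) * (q - z)) = 0

variable {P Q : ℂ → ℂ → Prop} {o : ℂ → ℂ → ℝ}

theorem WebM.swap (h : WebM P Q o) : WebM Q P o where
  rh {z v q} h1 h2 := by
    obtain ⟨a, b, c⟩ := h.rh h2 h1
    rw [add_comm q v] at a b c
    exact ⟨a, c, b⟩
  threeP := h.threeQ
  threeQ := h.threeP
  sep {z v v' q q'} h1 h2 h3 h4 := by
    have h5 := h.sep h3 h4 h1 h2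
    have e : det (v - z) (q - z) * det (v - z) (q' - z) *
        (det (v' - z) (q - z) * det (v' - z) (q' - z)) =
        det (q - z) (v - z) * det (q - z) (v' - z) *
          (det (q' - z) (v - z) * det (q' - z) (v' - z)) := by
      simp only [det]; ring
    rw [e]; exact h5
  sgn h1 := h.sgn h1.symm
  oppP := h.oppQ
  oppQ := h.oppP
  out h1 h2 h3 h4 := (h.out h2 h1 h4 h3).symm
  lp3P := h.lp3Q
  lp3Q := h.lp3P

/-- the second common centre, with the other ends -/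
theorem WebM.rot (h : WebM P Q o) {v c₁ c₂ : ℂ} (h1 : P c₁ v) (q12 : Q c₁ (c₁ + c₂ - v)) :
    Q c₂ (c₁ + c₂ - v) := by
  have := (h.rh h1 q12).2.2
  have e2 : v + (c₁ + c₂ - v) - c₁ = c₂ := by ring
  rwa [e2] at this

/-- the other common centre of an edge -/
theorem WebM.other (h : WebM P Q o) {z v q : ℂ} (hv : P z v) (hq : Q z q) :
    P (v + q - z) v ∧ Q (v + q - z) q ∧ z ≠ v + q - z := by
  obtain ⟨a, b, c⟩ := h.rh hv hq
  refine ⟨b, c, fun hc => a ?_⟩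
  linear_combination -hc

theorem WebM.le_two (h : WebM P Q o) {z v₁ v₂ v₃ q : ℂ} (h1 : P z v₁) (h2 : P z v₂)
    (h12 : v₁ ≠ v₂) (hq : Q z q) (h3 : P z v₃) : v₃ = v₁ ∨ v₃ = v₂ := by
  obtain ⟨a0, a1, a2⟩ := h.rh h1 hq
  obtain ⟨b0, b1, b2⟩ := h.rh h2 hq
  obtain ⟨c0, c1, c2⟩ := h.rh h3 hq
  have a3 : z ≠ v₁ + q - z := fun hc => a0 (by linear_combination -hc)
  have b3 : z ≠ v₂ + q - z := fun hc => b0 (by linear_combination -hc)
  have hww : v₁ + q - z ≠ v₂ + q - z := by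
    intro hc; apply h12; linear_combination hc
  rcases h.threeQ hq a2 b2 c2 ⟨_, h1⟩ ⟨_, a1⟩ ⟨_, b1⟩ ⟨_, c1⟩ a3 b3 hww with hc | hc | hc
  · exact absurd (by linear_combination hc) c0
  · left; linear_combination hc
  · right; linear_combination hc

/-- the second ends of two centres of an edge are parallel -/
theorem WebM.par (h : WebM P Q o) {v c₁ c₂ x y : ℂ} (h1 : P c₁ v) (h2 : P c₂ v) (h12 : c₁ ≠ c₂)
    (hq : Q c₁ (c₁ + c₂ - v)) (hx : P c₁ x) (hxv : x ≠ v) (hy : P c₂ y) (hyv : y ≠ v) :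
    x - c₁ = y - c₂ := by
  have hq2 : Q c₂ (c₁ + c₂ - v) := h.rot h1 hq
  obtain ⟨a1, a2, a3⟩ := h.rh hx hq
  obtain ⟨b1, b2, b3⟩ := h.rh hy hq2
  have hr1 : c₁ ≠ x + (c₁ + c₂ - v) - c₁ := by
    intro hc
    apply a1
    linear_combination -hc
  have hr2 : c₂ ≠ x + (c₁ + c₂ - v) - c₁ := by
    intro hc
    apply hxv
    linear_combination -hc
  rcases h.threeQ hq hq2 a3 b3 ⟨_, h1⟩ ⟨_, h2⟩ ⟨_, a2⟩ ⟨_, b2⟩ h12 hr1 hr2 with hc | hc | hc
  · exact absurd (by linear_combination hc) hyv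
  · exact absurd (by linear_combination hc) b1
  · linear_combination -hc

/-- the two separations at the centres `c₁`, `c₂` of a full vertex and `n` -/
theorem sep_opp {u₁ u₂ u₃ n : ℂ} (s1 : Sp u₁ n u₂ u₃) (s2 : Sp u₂ n u₁ u₃) :
    det u₃ u₁ * det u₃ u₂ * (det n u₁ * det n u₂) < 0 := by
  unfold Sp at s1 s2
  have h1 : 0 < (det u₁ u₂ * det u₁ u₃ * (det n u₂ * det n u₃)) *
      (det u₂ u₁ * det u₂ u₃ * (det n u₁ * det n u₃)) := mul_pos s1 s2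
  have h2 : (det u₁ u₂ * det u₁ u₃ * (det n u₂ * det n u₃)) *
      (det u₂ u₁ * det u₂ u₃ * (det n u₁ * det n u₃)) =
      -((det u₁ u₂ * det n u₃) ^ 2 * (det u₃ u₁ * det u₃ u₂ * (det n u₁ * det n u₂))) := by
    simp only [det]; ring
  rw [h2] at h1
  by_contra hc
  have h3 : 0 ≤ (det u₁ u₂ * det n u₃) ^ 2 *
      (det u₃ u₁ * det u₃ u₂ * (det n u₁ * det n u₂)) := mul_nonneg (sq_nonneg _) (not_lt.1 hc)
  linarith

/-- **two centres of a vertex with three neighbours cannot both have a second end** -/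
theorem WebM.two_two (h : WebM P Q o) {v c₁ c₂ c₃ : ℂ} (h1 : P c₁ v) (h2 : P c₂ v) (h3 : P c₃ v)
    (h12 : c₁ ≠ c₂) (h13 : c₁ ≠ c₃) (h23 : c₂ ≠ c₃)
    (q12 : Q c₁ (c₁ + c₂ - v)) (q13 : Q c₁ (c₁ + c₃ - v)) (q23 : Q c₂ (c₂ + c₃ - v))
    {n : ℂ} (hn1 : P c₁ (c₁ + n)) (hn1v : c₁ + n ≠ v) (hn2 : P c₂ (c₂ + n)) (_hn2v : c₂ + n ≠ v) :
    False := by
  have q21 : Q c₂ (c₁ + c₂ - v) := h.rot h1 q12
  have q31 : Q c₃ (c₁ + c₃ - v) := h.rot h1 q13
  have q32 : Q c₃ (c₂ + c₃ - v) := h.rot h2 q23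
  -- separation at `c₁`, `c₂`
  have s1 : Sp (c₁ - v) n (c₂ - v) (c₃ - v) := by
    have := h.sep h1 hn1 q12 q13
    have e1 : c₁ + c₂ - v - c₁ = c₂ - v := by ring
    have e2 : c₁ + c₃ - v - c₁ = c₃ - v := by ring
    have e3 : v - c₁ = -(c₁ - v) := by ring
    have e4 : c₁ + n - c₁ = n := by ring
    rw [e1, e2, e3, e4] at this
    exact Sp.neg1 this
  have s2 : Sp (c₂ - v) n (c₁ - v) (c₃ - v) := by
    have := h.sep h2 hn2 q21 q23
    have e1 : c₁ + c₂ - v - c₂ = c₁ - v := by ring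
    have e2 : c₂ + c₃ - v - c₂ = c₃ - v := by ring
    have e3 : v - c₂ = -(c₂ - v) := by ring
    have e4 : c₂ + n - c₂ = n := by ring
    rw [e1, e2, e3, e4] at this
    exact Sp.neg1 this
  by_cases o3 : ∀ v', P c₃ v' → v' = v
  · have n3 : c₁ + c₃ - v ≠ c₂ + c₃ - v := by
      intro hc; apply h12; linear_combination hc
    -- the third centre has a single end
    have w3 := h.oppP h3 q31 q32 n3 o3 fun s hs => h.swap.le_two q31 q32 n3 h3 hs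
    have e1 : c₁ + c₃ - v - c₃ = c₁ - v := by ring
    have e2 : c₂ + c₃ - v - c₃ = c₂ - v := by ring
    have e3 : v - c₃ = -(c₃ - v) := by ring
    rw [e1, e2, e3, det_neg_l, det_neg_l] at w3
    have k := sep_opp s1 s2
    -- the centre `r₁₂`
    obtain ⟨a1, a2, a3⟩ := h.rh hn1 q12
    obtain ⟨b1, b2, b3⟩ := h.rh hn1 q13
    obtain ⟨d1, d2, d3⟩ := h.rh hn2 q21
    have er12 : c₁ + n + (c₁ + c₂ - v) - c₁ = c₁ + c₂ - v + n := by ring
    have er13 : c₁ + n + (c₁ + c₃ - v) - c₁ = c₁ + c₃ - v + n := by ring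
    have er21 : c₂ + n + (c₁ + c₂ - v) - c₂ = c₁ + c₂ - v + n := by ring
    rw [er12] at a2 a3
    rw [er13] at b2 b3
    rw [er21] at d2 d3
    have hv12 : c₁ + n ≠ c₂ + n := by
      intro hc; apply h12; linear_combination hc
    by_cases os : ∀ s, Q (c₁ + c₂ - v + n) s → s = c₁ + c₂ - v
    · have w12 := h.oppQ a3 a2 d2 hv12 os fun s hs => h.le_two a2 d2 hv12 a3 hs
      have f1 : c₁ + n - (c₁ + c₂ - v + n) = -(c₂ - v) := by ring
      have f2 : c₂ + n - (c₁ + c₂ - v + n) = -(c₁ - v) := by ring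
      have f3 : c₁ + c₂ - v - (c₁ + c₂ - v + n) = -n := by ring
      rw [f1, f2, f3] at w12
      simp only [det_neg_l, det_neg_r, neg_neg] at w12
      have h5 : det (c₃ - v) (c₁ - v) * det (c₃ - v) (c₂ - v) < 0 := by linarith
      have h6 : det n (c₁ - v) * det n (c₂ - v) < 0 := by linarith
      have := mul_pos_of_neg_of_neg h5 h6
      linarith
    · push Not at os
      obtain ⟨s, hs, hsne⟩ := os
      obtain ⟨g1, g2, g3⟩ := h.rh a2 hs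
      have r1 : c₁ ≠ c₁ + c₃ - v + n := by
        intro hc; apply b1; linear_combination -hc
      have t1 : c₁ ≠ c₁ + c₂ - v + n := by
        intro hc; apply a1; linear_combination -hc
      have t2 : c₁ + c₂ - v + n ≠ c₁ + c₃ - v + n := by
        intro hc; apply h23; linear_combination hc
      rcases h.threeP hn1 a2 b2 g2 ⟨_, q12⟩ ⟨_, a3⟩ ⟨_, b3⟩ ⟨_, g3⟩ t1 r1 t2 with hc | hc | hc
      · exact hsne (by linear_combination hc)
      · exact g1 (by linear_combination hc)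
      · -- `s - r₁₂ = u₃`
        have s3 := h.sep a2 d2 a3 hs
        have e1 : c₁ + n - (c₁ + c₂ - v + n) = -(c₂ - v) := by ring
        have e2 : c₂ + n - (c₁ + c₂ - v + n) = -(c₁ - v) := by ring
        have e3 : c₁ + c₂ - v - (c₁ + c₂ - v + n) = -n := by ring
        have e4 : s - (c₁ + c₂ - v + n) = c₃ - v := by linear_combination hc
        rw [e1, e2, e3, e4] at s3
        have s3' : Sp (c₂ - v) (c₁ - v) n (c₃ - v) := (Sp.neg1 (Sp.neg2 (Sp.neg3 s3)))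
        refine three_pairings (a := n) (b := c₁ - v) (c := c₂ - v) (d := c₃ - v) s1.comm s2.comm ?_
        exact s3'.swap.comm'
  · push Not at o3
    obtain ⟨x, hx, hxv⟩ := o3
    have e := h.par h1 h3 h13 q13 hn1 hn1v hx hxv
    have hxe : x = c₃ + n := by linear_combination -e
    subst hxe
    have s3 : Sp (c₃ - v) n (c₁ - v) (c₂ - v) := by
      have := h.sep h3 hx q31 q32
      have e1 : c₁ + c₃ - v - c₃ = c₁ - v := by ring
      have e2 : c₂ + c₃ - v - c₃ = c₂ - v := by ring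
      have e3 : v - c₃ = -(c₃ - v) := by ring
      have e4 : c₃ + n - c₃ = n := by ring
      rw [e1, e2, e3, e4] at this
      exact Sp.neg1 this
    exact three_pairings s1.comm s2.comm s3.comm

/-- the same with arbitrary second ends -/
theorem WebM.two_two' (h : WebM P Q o) {v c₁ c₂ c₃ x y : ℂ} (h1 : P c₁ v) (h2 : P c₂ v)
    (h3 : P c₃ v) (h12 : c₁ ≠ c₂) (h13 : c₁ ≠ c₃) (h23 : c₂ ≠ c₃)
    (q12 : Q c₁ (c₁ + c₂ - v)) (q13 : Q c₁ (c₁ + c₃ - v)) (q23 : Q c₂ (c₂ + c₃ - v))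
    (hx : P c₁ x) (hxv : x ≠ v) (hy : P c₂ y) (hyv : y ≠ v) : False := by
  have e := h.par h1 h2 h12 q12 hx hxv hy hyv
  have ex : x = c₁ + (x - c₁) := by ring
  have ey : y = c₂ + (x - c₁) := by linear_combination -e
  exact h.two_two h1 h2 h3 h12 h13 h23 q12 q13 q23 (n := x - c₁) (ex ▸ hx) (ex ▸ hxv) (ey ▸ hy)
    (ey ▸ hyv)

theorem det_self (a : ℂ) : det a a = 0 := by
  simp only [det]; ring

/-- **vertex lemma**: the two other centres `v + qᵢ - z` of `v` are not both of type (1,1) -/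
theorem WebM.e2 (h : WebM P Q o) {z v q₁ q₂ : ℂ} (hv : P z v) (k1 : Q z q₁) (k2 : Q z q₂)
    (k12 : q₁ ≠ q₂) (a1 : ∀ x, P (v + q₁ - z) x → x = v) (b1 : ∀ s, Q (v + q₁ - z) s → s = q₁)
    (a2 : ∀ x, P (v + q₂ - z) x → x = v) (b2 : ∀ s, Q (v + q₂ - z) s → s = q₂) : False := by
  obtain ⟨c1, d1, n1⟩ := h.other hv k1
  obtain ⟨c2, d2, n2⟩ := h.other hv k2
  obtain ⟨f1, -⟩ := h.out c1 d1 a1 b1
  obtain ⟨f2, -⟩ := h.out c2 d2 a2 b2
  have e1 : v - (v + q₁ - z) = -(q₁ - z) := by ring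
  have e2 : q₁ - (v + q₁ - z) = -(v - z) := by ring
  have e3 : v - (v + q₂ - z) = -(q₂ - z) := by ring
  have e4 : q₂ - (v + q₂ - z) = -(v - z) := by ring
  rw [e1, e2, det_neg_l, det_neg_r, neg_neg] at f1
  rw [e3, e4, det_neg_l, det_neg_r, neg_neg] at f2
  obtain ⟨a, b, ha, hb, hl⟩ := h.lp3P hv k1 c2 d2 n2.symm (fun hc => k12 (by linear_combination -hc))
  have e5 : v + q₂ - z - v = q₂ - z := by ring
  have e6 : z - v = -(v - z) := by ring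
  rw [e5, e6] at hl
  have g := congrArg (fun w => det w (v - z)) hl
  have g1 : det ((o (v + q₂ - z) v : ℂ) * (q₂ - z) + (a : ℂ) * ((o z v : ℂ) * (-(v - z)))
      + (b : ℂ) * ((o (v + q₁ - z) v : ℂ) * (q₁ - z))) (v - z) =
      o (v + q₂ - z) v * det (q₂ - z) (v - z) + b * (o (v + q₁ - z) v * det (q₁ - z) (v - z)) := by
    generalize v - z = r
    generalize q₁ - z = r₁
    generalize q₂ - z = r₂
    simp only [det, Complex.mul_re, Complex.mul_im, Complex.ofReal_re, Complex.ofReal_im,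
      Complex.neg_re, Complex.neg_im, Complex.add_re, Complex.add_im]
    ring
  have g2 : det 0 (v - z) = 0 := by simp [det]
  simp only [g1, g2] at g
  have := mul_nonneg hb f1.le
  linarith

/-- a second `P`-end of `v₁ + q - z` is the second `P`-end of `v₂ + q - z` -/
theorem WebM.second (h : WebM P Q o) {z v₁ v₂ q x : ℂ} (h1 : P z v₁) (h2 : P z v₂) (h12 : v₁ ≠ v₂)
    (hq : Q z q) (hx : P (v₁ + q - z) x) (hne : x ≠ v₁) :
    x = v₁ + v₂ + q - 2 * z ∧ P (v₂ + q - z) x ∧ x ≠ v₂ := by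
  obtain ⟨a1, a2, a3⟩ := h.other h1 hq
  obtain ⟨b1, b2, b3⟩ := h.other h2 hq
  obtain ⟨c1, c2, c3⟩ := h.rh hx a2
  have hww : v₁ + q - z ≠ v₂ + q - z := by
    intro hc; apply h12; linear_combination hc
  rcases h.threeQ hq a2 b2 c3 ⟨_, h1⟩ ⟨_, a1⟩ ⟨_, b1⟩ ⟨_, c2⟩ a3 b3 hww with hc | hc | hc
  · exact absurd (by linear_combination hc) hne
  · exact absurd (by linear_combination hc) c1
  · have hxe : x = v₁ + v₂ + q - 2 * z := by linear_combination hc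
    rw [hc] at c2
    refine ⟨hxe, c2, fun he => (h.rh h1 hq).1 ?_⟩
    linear_combination he - hxe

/-- the situation at a centre `z` with two ends of each type: all four neighbouring centres have a
single `P`-end and two `Q`-ends -/
structure Full22 (P Q : ℂ → ℂ → Prop) (z v₁ v₂ q₁ q₂ : ℂ) : Prop where
  s11 : ∀ x, P (v₁ + q₁ - z) x → x = v₁
  s12 : ∀ x, P (v₁ + q₂ - z) x → x = v₁
  s21 : ∀ x, P (v₂ + q₁ - z) x → x = v₂
  s22 : ∀ x, P (v₂ + q₂ - z) x → x = v₂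
  y11 : Q (v₁ + q₁ - z) (q₁ + q₂ + v₁ - 2 * z)
  y12 : Q (v₁ + q₂ - z) (q₁ + q₂ + v₁ - 2 * z)
  y21 : Q (v₂ + q₁ - z) (q₁ + q₂ + v₂ - 2 * z)
  y22 : Q (v₂ + q₂ - z) (q₁ + q₂ + v₂ - 2 * z)
  y11' : q₁ + q₂ + v₁ - 2 * z ≠ q₁
  y12' : q₁ + q₂ + v₁ - 2 * z ≠ q₂
  y21' : q₁ + q₂ + v₂ - 2 * z ≠ q₁
  y22' : q₁ + q₂ + v₂ - 2 * z ≠ q₂

/-- if `v₁` has three neighbours then no centre of `v₁` other than `z` has a second `P`-end -/
theorem WebM.c1 (h : WebM P Q o) {z v₁ v₂ q₁ q₂ y x : ℂ} (h1 : P z v₁) (h2 : P z v₂)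
    (h12 : v₁ ≠ v₂) (k1 : Q z q₁) (k2 : Q z q₂) (k12 : q₁ ≠ q₂) (hy : Q (v₁ + q₁ - z) y)
    (hy1 : y ≠ q₁) (hx : P (v₁ + q₁ - z) x) : x = v₁ := by
  by_contra hne
  obtain ⟨a1, a2, a3⟩ := h.other h1 k1
  obtain ⟨b1, b2, b3⟩ := h.other h1 k2
  have hy' : Q (q₁ + v₁ - z) y := by rw [add_comm q₁ v₁]; exact hy
  obtain ⟨hye, -, -⟩ := h.swap.second k1 k2 k12 h1 hy' hy1
  have hww : v₁ + q₁ - z ≠ v₁ + q₂ - z := by
    intro hc; apply k12; linear_combination hc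
  refine h.two_two' (v := v₁) (c₁ := z) (c₂ := v₁ + q₁ - z) (c₃ := v₁ + q₂ - z) h1 a1 b1 a3 b3 hww
    ?_ ?_ ?_ h2 h12.symm hx hne
  · have e : z + (v₁ + q₁ - z) - v₁ = q₁ := by ring
    rw [e]; exact k1
  · have e : z + (v₁ + q₂ - z) - v₁ = q₂ := by ring
    rw [e]; exact k2
  · have e : v₁ + q₁ - z + (v₁ + q₂ - z) - v₁ = y := by rw [hye]; ring
    rw [e]; exact hy

/-- if `v₁` has three neighbours, the whole situation is `Full22` -/
theorem WebM.full_of (h : WebM P Q o) {z v₁ v₂ q₁ q₂ y : ℂ} (h1 : P z v₁) (h2 : P z v₂)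
    (h12 : v₁ ≠ v₂) (k1 : Q z q₁) (k2 : Q z q₂) (k12 : q₁ ≠ q₂) (hy : Q (v₁ + q₁ - z) y)
    (hy1 : y ≠ q₁) : Full22 P Q z v₁ v₂ q₁ q₂ := by
  have hy' : Q (q₁ + v₁ - z) y := by rw [add_comm q₁ v₁]; exact hy
  obtain ⟨hye, hyb, hy2⟩ := h.swap.second k1 k2 k12 h1 hy' hy1
  rw [add_comm q₂ v₁] at hyb
  have s11 : ∀ x, P (v₁ + q₁ - z) x → x = v₁ := fun x hx => h.c1 h1 h2 h12 k1 k2 k12 hy hy1 hx
  have s12 : ∀ x, P (v₁ + q₂ - z) x → x = v₁ := fun x hx =>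
    h.c1 h1 h2 h12 k2 k1 k12.symm hyb hy2 hx
  have s21 : ∀ x, P (v₂ + q₁ - z) x → x = v₂ := fun x hx => by
    by_contra hne
    obtain ⟨e1, e2, e3⟩ := h.second h2 h1 h12.symm k1 hx hne
    exact e3 (s11 x e2)
  have s22 : ∀ x, P (v₂ + q₂ - z) x → x = v₂ := fun x hx => by
    by_contra hne
    obtain ⟨e1, e2, e3⟩ := h.second h2 h1 h12.symm k2 hx hne
    exact e3 (s12 x e2)
  -- `v₂` has three neighbours
  have hz : ∃ s, Q (v₂ + q₁ - z) s ∧ s ≠ q₁ := by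
    by_contra hcon
    push Not at hcon
    have b1 : ∀ s, Q (v₂ + q₁ - z) s → s = q₁ := hcon
    have b2 : ∀ s, Q (v₂ + q₂ - z) s → s = q₂ := fun s hs => by
      by_contra hne
      have hs' : Q (q₂ + v₂ - z) s := by rw [add_comm q₂ v₂]; exact hs
      obtain ⟨e1, e2, e3⟩ := h.swap.second k2 k1 k12.symm h2 hs' hne
      rw [add_comm q₁ v₂] at e2
      exact e3 (b1 s e2)
    exact h.e2 h2 k1 k2 k12 s21 b1 s22 b2
  obtain ⟨s, hs, hs1⟩ := hz
  have hs' : Q (q₁ + v₂ - z) s := by rw [add_comm q₁ v₂]; exact hs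
  obtain ⟨hse, hsb, hs2⟩ := h.swap.second k1 k2 k12 h2 hs' hs1
  rw [add_comm q₂ v₂] at hsb
  subst hye hse
  exact ⟨s11, s12, s21, s22, hy, hyb, hs, hsb, hy1, hy2, hs1, hs2⟩

/-- **the two cases at a centre with two clean ends of each type** -/
theorem WebM.cases22 (h : WebM P Q o) {z v₁ v₂ q₁ q₂ : ℂ} (h1 : P z v₁) (h2 : P z v₂)
    (h12 : v₁ ≠ v₂) (k1 : Q z q₁) (k2 : Q z q₂) (k12 : q₁ ≠ q₂) :
    Full22 P Q z v₁ v₂ q₁ q₂ ∨ Full22 Q P z q₁ q₂ v₁ v₂ := by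
  by_cases hy : ∃ y, Q (v₁ + q₁ - z) y ∧ y ≠ q₁
  · obtain ⟨y, hy, hy1⟩ := hy
    exact Or.inl (h.full_of h1 h2 h12 k1 k2 k12 hy hy1)
  by_cases hx : ∃ x, P (q₁ + v₁ - z) x ∧ x ≠ v₁
  · obtain ⟨x, hx, hx1⟩ := hx
    exact Or.inr (h.swap.full_of k1 k2 k12 h1 h2 h12 hx hx1)
  by_cases hx2 : ∃ x, P (q₂ + v₁ - z) x ∧ x ≠ v₁
  · obtain ⟨x, hx2, hx1⟩ := hx2
    have f := h.swap.full_of k2 k1 k12.symm h1 h2 h12 hx2 hx1
    exfalso
    apply hx
    have := f.y21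
    refine ⟨_, f.y21, f.y21'⟩
  exfalso
  push Not at hy hx hx2
  have b2 : ∀ s, Q (v₁ + q₂ - z) s → s = q₂ := fun s hs => by
    by_contra hne
    have hs' : Q (q₂ + v₁ - z) s := by rw [add_comm q₂ v₁]; exact hs
    obtain ⟨e1, e2, e3⟩ := h.swap.second k2 k1 k12.symm h1 hs' hne
    rw [add_comm q₁ v₁] at e2
    exact e3 (hy s e2)
  refine h.e2 h1 k1 k2 k12 (fun x hx' => hx x ?_) hy (fun x hx' => hx2 x ?_) b2
  · rw [add_comm q₁ v₁]; exact hx'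
  · rw [add_comm q₂ v₁]; exact hx'

end Vale.Agent.P032.Net
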